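import Vale.Agent.P091.AD.H356.LookB

/-!
# P091, block AD, row AD-1 : monotonicity and concavity of `h`, `ha` (helper347)
-/

set_option autoImplicit false

open Finset Real
open Vale.Agent.P065.Ent

noncomputable section

namespace Vale.Agent.P091.AD.H347

open Vale.Agent.P091.AD Vale.Agent.P091.AD.H356

variable {Γ : Type} [AddCommGroup Γ]

theorem h_nonneg (lam : Law Γ) (n : ℕ) : 0 ≤ lam.h n :=
  Hc_nonneg (pw_isProb lam.beta_isProb) _ _

theorem ha_nonneg (lam : Law Γ) (n : ℕ) : 0 ≤ lam.ha n := Hc_nonneg (pw_isProb lam.prob) _ _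

theorem h_le_succ (lam : Law Γ) (n : ℕ) : lam.h n ≤ lam.h (n + 1) := by
  have hb : IsProb (pw (ι := Fin n) lam.beta) := pw_isProb lam.beta_isProb
  have hB := lam.beta_isProb
  rw [h_succ]
  have e1 : lam.h n = Hc (px lam.beta (pw (ι := Fin n) lam.beta)) (fun w => sm lam.N w.2)
      (fun w => (lam.zl w.1, lb lam.zl w.2)) :=
    (Hc_px_right hB hb (sm lam.N) lam.zl (lb lam.zl)).symm
  rw [e1]
  have h0 : I (px lam.beta (pw (ι := Fin n) lam.beta)) (fun w => sm lam.N w.2)
      (fun w => lam.N w.1) (fun w => (lam.zl w.1, lb lam.zl w.2)) = 0 := by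
    rw [I_symm]
    exact I_px hB hb lam.N (sm lam.N) lam.zl (lb lam.zl)
  refine (Hc_le_add_indep (px_isProb hB hb) _ _ _ h0).trans (le_of_eq ?_)
  congr 1
  funext w
  exact add_comm _ _

/-- `ha (n + 1)` on the space (point) × (word) -/
theorem ha_succ (lam : Law Γ) (q : ℕ) : lam.ha (q + 1) =
    Hc (px lam.μ (pw (ι := Fin q) lam.μ)) (fun w => lam.a w.1 + sm lam.a w.2)
      (fun w => (lam.z w.1, lb lam.z w.2)) := by
  unfold Law.ha
  rw [← (MP_cons (n := q) lam.μ).hc]
  refine Hc_congr ?_ ?_ ?_ ?_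
  · intro a b e
    simp only [sm, Fin.sum_univ_succ, Fin.cons_zero, Fin.cons_succ] at e ⊢
    exact e
  · intro a b e
    simp only [sm, Fin.sum_univ_succ, Fin.cons_zero, Fin.cons_succ] at e ⊢
    exact e
  · intro a b e
    have h0 := congrFun e 0
    simp only [lb, Fin.cons_zero] at h0
    simp only [Prod.mk.injEq]
    refine ⟨h0, funext fun j => ?_⟩
    have hj := congrFun e j.succ
    simpa only [lb, Fin.cons_succ] using hj
  · intro a b e
    simp only [Prod.mk.injEq] at e
    funext j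
    refine Fin.cases ?_ (fun j => ?_) j
    · simpa only [lb, Fin.cons_zero] using e.1
    · have hj := congrFun e.2 j
      simpa only [lb, Fin.cons_succ] using hj

theorem ha_le_succ (lam : Law Γ) (n : ℕ) : lam.ha n ≤ lam.ha (n + 1) := by
  have hb : IsProb (pw (ι := Fin n) lam.μ) := pw_isProb lam.prob
  have hB := lam.prob
  rw [ha_succ]
  have e1 : lam.ha n = Hc (px lam.μ (pw (ι := Fin n) lam.μ)) (fun w => sm lam.a w.2)
      (fun w => (lam.z w.1, lb lam.z w.2)) :=
    (Hc_px_right hB hb (sm lam.a) lam.z (lb lam.z)).symm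
  rw [e1]
  have h0 : I (px lam.μ (pw (ι := Fin n) lam.μ)) (fun w => sm lam.a w.2)
      (fun w => lam.a w.1) (fun w => (lam.z w.1, lb lam.z w.2)) = 0 := by
    rw [I_symm]
    exact I_px hB hb lam.a (sm lam.a) lam.z (lb lam.z)
  refine (Hc_le_add_indep (px_isProb hB hb) _ _ _ h0).trans (le_of_eq ?_)
  congr 1
  funext w
  exact add_comm _ _

theorem ha_le_h (lam : Law Γ) (n : ℕ) : lam.ha n ≤ lam.h n := by
  have hp : IsProb (pw (ι := Fin n) lam.μ) := pw_isProb lam.prob
  have e1 : lam.h n = hI lam (Fin n) := rfl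
  rw [e1, hI_pair]
  have e2 : lam.ha n = Hc (cc (pw (ι := Fin n) lam.μ) (lb lam.z)) (fun u => sm lam.a u.1)
      (fun u => lb lam.z u.1) :=
    ((MP_cc_fst hp (lb lam.z)).hc (sm lam.a) (lb lam.z)).symm
  rw [e2]
  exact Hc_le_add_indep (cc_isProb hp _) _ _ _
    (I_cc0 hp (lb lam.z) (sm lam.a) (fun u => - sm lam.a u))

/-- the three variables space -/
theorem MP_rot {A B C : Type*} [Fintype A] [Fintype B] [Fintype C] (α : A → ℝ) (β : B → ℝ)
    (γ : C → ℝ) : MP (px α (px β γ)) (px β (px α γ)) (fun w => (w.2.1, (w.1, w.2.2))) := by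
  have h := MP.equiv (μ := px α (px β γ)) (μ' := px β (px α γ))
    (⟨fun w => (w.2.1, (w.1, w.2.2)), fun w => (w.2.1, (w.1, w.2.2)), fun _ => rfl, fun _ => rfl⟩ :
      A × (B × C) ≃ B × (A × C)) fun w => by
      show α w.1 * (β w.2.1 * γ w.2.2) = β w.2.1 * (α w.1 * γ w.2.2)
      ring
  exact h

theorem h_concave (lam : Law Γ) (n : ℕ) :
    lam.h (n + 2) - lam.h (n + 1) ≤ lam.h (n + 1) - lam.h n := by
  have hb : IsProb (pw (ι := Fin n) lam.beta) := pw_isProb lam.beta_isProb
  have hB := lam.beta_isProb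
  set β := lam.beta with hβ
  set ρ := pw (ι := Fin n) lam.beta with hρ
  have hp1 : IsProb (px β ρ) := px_isProb hB hb
  have hp : IsProb (px β (px β ρ)) := px_isProb hB hp1
  -- the variables `X` (first letter), `Y` (word), `S` (second letter), labels `W`
  set W : lam.Lt × (lam.Lt × (Fin n → lam.Lt)) → lam.Z × (lam.Z × (Fin n → lam.Z)) :=
    fun w => (lam.zl w.1, (lam.zl w.2.1, lb lam.zl w.2.2)) with hW
  -- h (n + 2)
  have e2 : lam.h (n + 2) = Hc (px β (px β ρ))
      (fun w => lam.N w.1 + (sm lam.N w.2.2 + lam.N w.2.1)) W := by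
    rw [h_succ]
    rw [← ((MP_id lam.beta).prodMap (MP_cons (n := n) lam.beta)).hc]
    refine Hc_congr ?_ ?_ ?_ ?_
    · intro a b e
      simp only [Prod.map, sm, Fin.sum_univ_succ, Fin.cons_zero, Fin.cons_succ] at e ⊢
      rw [add_comm (∑ i, lam.N (a.2.2 i)), add_comm (∑ i, lam.N (b.2.2 i))]
      exact e
    · intro a b e
      simp only [Prod.map, sm, Fin.sum_univ_succ, Fin.cons_zero, Fin.cons_succ] at e ⊢
      rw [add_comm (∑ i, lam.N (a.2.2 i)), add_comm (∑ i, lam.N (b.2.2 i))] at e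
      exact e
    · intro a b e
      simp only [Prod.map, Prod.mk.injEq] at e
      have h0 := congrFun e.2 0
      simp only [lb, Fin.cons_zero] at h0
      simp only [hW, Prod.mk.injEq]
      refine ⟨e.1, h0, funext fun j => ?_⟩
      have hj := congrFun e.2 j.succ
      simpa only [lb, Fin.cons_succ] using hj
    · intro a b e
      simp only [hW, Prod.mk.injEq] at e
      simp only [Prod.map, Prod.mk.injEq]
      refine ⟨e.1, funext fun j => ?_⟩
      refine Fin.cases ?_ (fun j => ?_) j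
      · simpa only [lb, Fin.cons_zero] using e.2.1
      · have hj := congrFun e.2.2 j
        simpa only [lb, Fin.cons_succ] using hj
  -- h (n + 1), with the second letter
  have e1 : lam.h (n + 1) = Hc (px β (px β ρ)) (fun w => sm lam.N w.2.2 + lam.N w.2.1) W := by
    have h1 := Hc_px_right hB hp1 (fun w : lam.Lt × (Fin n → lam.Lt) => sm lam.N w.2 + lam.N w.1)
      lam.zl (fun w => (lam.zl w.1, lb lam.zl w.2))
    rw [h_succ]
    refine Eq.trans ?_ h1.symm
    congr 1
    funext w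
    exact add_comm _ _
  -- h (n + 1), with the first letter
  have e1' : lam.h (n + 1) = Hc (px β (px β ρ)) (fun w => lam.N w.1 + sm lam.N w.2.2) W := by
    have h1 := Hc_px_right hB hp1 (fun w : lam.Lt × (Fin n → lam.Lt) => lam.N w.1 + sm lam.N w.2)
      lam.zl (fun w => (lam.zl w.1, lb lam.zl w.2))
    have h2 := (MP_rot β β ρ).hc (fun w => lam.N w.2.1 + sm lam.N w.2.2)
      (fun w => (lam.zl w.1, (lam.zl w.2.1, lb lam.zl w.2.2)))
    rw [h_succ]
    refine Eq.trans ?_ (h2.symm.trans ?_).symm.symm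
    · exact h1.symm
    · refine Hc_congr (Det.refl _) (Det.refl _) ?_ ?_
      · intro a b e
        simp only [hW, Prod.mk.injEq] at e ⊢
        exact ⟨e.2.1, e.1, e.2.2⟩
      · intro a b e
        simp only [hW, Prod.mk.injEq] at e ⊢
        exact ⟨e.2.1, e.1, e.2.2⟩
  have e0 : lam.h n = Hc (px β (px β ρ)) (fun w => sm lam.N w.2.2) W := by
    have h1 := Hc_px_right hB hp1 (fun w : lam.Lt × (Fin n → lam.Lt) => sm lam.N w.2)
      lam.zl (fun w => (lam.zl w.1, lb lam.zl w.2))
    have h2 := Hc_px_right hB hb (sm lam.N) lam.zl (lb lam.zl)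
    exact (h1.trans h2).symm
  -- independence
  have i1 : I (px β (px β ρ)) (fun w => lam.N w.1)
      (fun w => (sm lam.N w.2.2, lam.N w.2.1)) W = 0 :=
    I_px hB hp1 lam.N (fun w : lam.Lt × (Fin n → lam.Lt) => (sm lam.N w.2, lam.N w.1)) lam.zl
      (fun w => (lam.zl w.1, lb lam.zl w.2))
  have i2 : I (px β (px β ρ)) (fun w => lam.N w.2.1)
      (fun w => (lam.N w.1, sm lam.N w.2.2)) W = 0 := by
    have h1 := I_px hB hp1 lam.N (fun w : lam.Lt × (Fin n → lam.Lt) => (lam.N w.1, sm lam.N w.2))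
      lam.zl (fun w => (lam.zl w.1, lb lam.zl w.2))
    have h2 := (MP_rot β β ρ).inf (fun w => lam.N w.1) (fun w => (lam.N w.2.1, sm lam.N w.2.2))
      (fun w => (lam.zl w.1, (lam.zl w.2.1, lb lam.zl w.2.2)))
    refine Eq.trans ?_ (h2.trans h1)
    refine I_congr (Det.refl _) (Det.refl _) (Det.refl _) (Det.refl _) ?_ ?_
    · intro a b e
      simp only [hW, Prod.mk.injEq] at e ⊢
      exact ⟨e.2.1, e.1, e.2.2⟩
    · intro a b e
      simp only [hW, Prod.mk.injEq] at e ⊢
      exact ⟨e.2.1, e.1, e.2.2⟩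
  have hk := kvm_one hp (fun w => lam.N w.1) (fun w => sm lam.N w.2.2) (fun w => lam.N w.2.1) W
    i1 i2
  rw [← e2, ← e1, ← e1', ← e0] at hk
  exact hk

/-- **AD-HMONO** -/
theorem hMono : HMono := fun _ _ lam n =>
  ⟨h_nonneg lam n, h_le_succ lam n, h_concave lam n, ha_nonneg lam n, ha_le_succ lam n,
    ha_le_h lam n⟩

end Vale.Agent.P091.AD.H347
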