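import Vale.Agent.P091.AD.H347.Step

/-!
# P091, block AD, row AD-4 : Lemma B (helper347)

`lemmaB_of : HMono → Trunc → LookA → LookB → LemmaB`
-/

set_option autoImplicit false

open Finset Real
open Vale.Agent.P065.Ent

noncomputable section

namespace Vale.Agent.P091.AD.H347

open Vale.Agent.P091.AD Vale.Agent.P091.AD.H154

theorem ev : ∃ R0 : ℝ, ∀ R ≥ R0, 1 ≤ R ∧ 12 ≤ log R ∧ 20 ≤ (log R) ^ (0.6 : ℝ) ∧
    12 ≤ (log R) ^ (0.4 : ℝ) ∧ 400 ≤ (log R) ^ (0.05 : ℝ) ∧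
    5 * (log R) ^ (0.05 : ℝ) ≤ R ^ (1 / 2 : ℝ) := by
  have hlog := Real.tendsto_log_atTop
  have h1 : ∀ᶠ R : ℝ in Filter.atTop, 1 ≤ R := Filter.eventually_ge_atTop 1
  have h2 : ∀ᶠ R : ℝ in Filter.atTop, 12 ≤ log R := hlog.eventually_ge_atTop 12
  have h3 : ∀ᶠ R : ℝ in Filter.atTop, 20 ≤ (log R) ^ (0.6 : ℝ) :=
    ((tendsto_rpow_atTop (by norm_num : (0 : ℝ) < 0.6)).comp hlog).eventually_ge_atTop 20
  have h4 : ∀ᶠ R : ℝ in Filter.atTop, 12 ≤ (log R) ^ (0.4 : ℝ) :=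
    ((tendsto_rpow_atTop (by norm_num : (0 : ℝ) < 0.4)).comp hlog).eventually_ge_atTop 12
  have h5 : ∀ᶠ R : ℝ in Filter.atTop, 400 ≤ (log R) ^ (0.05 : ℝ) :=
    ((tendsto_rpow_atTop (by norm_num : (0 : ℝ) < 0.05)).comp hlog).eventually_ge_atTop 400
  have h6 : ∀ᶠ R : ℝ in Filter.atTop, 5 * (log R) ^ (0.05 : ℝ) ≤ R ^ (1 / 2 : ℝ) := by
    have := (isLittleO_log_rpow_rpow_atTop (0.05 : ℝ) (by norm_num : (0 : ℝ) < 1 / 2)).bound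
      (by norm_num : (0 : ℝ) < 1 / 5)
    filter_upwards [this, h1, h2] with R hR h1 h2
    rw [norm_of_nonneg (rpow_nonneg (by linarith) _), norm_of_nonneg (rpow_nonneg (by linarith) _)]
      at hR
    linarith
  exact Filter.eventually_atTop.mp (h1.and (h2.and (h3.and (h4.and (h5.and h6)))))

theorem costLe_mono {Γ : Type} {lam : Law Γ} {A : Finset Γ} {c c' : ℝ} (h : lam.costLe A c)
    (hcc : c ≤ c') : lam.costLe A c' := fun ω =>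
  ⟨(h ω).1, (h ω).2.trans (mul_le_mul_of_nonneg_right (exp_le_exp.mpr hcc)
    (Pr_nonneg lam.prob _ _))⟩

/-- the parameters -/
theorem par (R : ℝ) (I0 t : ℕ) (hI : R ^ (1 / 2 : ℝ) ≤ 2 ^ I0)
    (ht : (2 : ℝ) ^ t ≤ 64 * exp (LL R)) (r1 : 1 ≤ R) (r2 : 12 ≤ log R)
    (r3 : 20 ≤ (log R) ^ (0.6 : ℝ)) (r4 : 12 ≤ (log R) ^ (0.4 : ℝ)) :
    0.7 * log R ≤ I0 ∧ 8 ≤ I0 ∧ ((t + 4 : ℕ) : ℝ) ≤ 2 * (log R) ^ (0.6 : ℝ) ∧
      4 * (t + 4) ≤ I0 := by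
  set X := log R with hX
  have hX0 : 0 < X := by linarith
  have hR : 0 < R := by linarith
  have l1 : log 2 < 0.6931471808 := log_two_lt_d9
  have l2 : 0.6931471803 < log 2 := log_two_gt_d9
  have hI0 : 0.7 * X ≤ I0 := by
    have h1 : log (R ^ (1 / 2 : ℝ)) ≤ log ((2 : ℝ) ^ I0) := log_le_log (rpow_pos_of_pos hR _) hI
    rw [log_rpow hR, log_pow, ← hX] at h1
    have h2 : (I0 : ℝ) * log 2 ≤ I0 * 0.6931471808 :=
      mul_le_mul_of_nonneg_left l1.le (Nat.cast_nonneg _)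
    linarith
  have hX04 : X ^ (0.6 : ℝ) * X ^ (0.4 : ℝ) = X := by
    rw [← rpow_add hX0]; norm_num
  have hI0' : 8 * X ^ (0.6 : ℝ) ≤ I0 := by
    have : 8 * X ^ (0.6 : ℝ) ≤ 0.7 * X := by
      calc 8 * X ^ (0.6 : ℝ) ≤ 0.7 * (X ^ (0.6 : ℝ) * X ^ (0.4 : ℝ)) := by nlinarith
        _ = 0.7 * X := by rw [hX04]
    linarith
  have hI08 : 8 ≤ I0 := by
    have : (8 : ℝ) ≤ I0 := by linarith
    exact_mod_cast this
  have hn : ((t + 4 : ℕ) : ℝ) ≤ 2 * X ^ (0.6 : ℝ) := by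
    have h1 : log ((2 : ℝ) ^ t) ≤ log (64 * exp (LL R)) := log_le_log (by positivity) ht
    rw [log_pow, log_mul (by norm_num) (exp_pos _).ne', log_exp] at h1
    have h2 : log 64 = 6 * log 2 := by
      rw [show (64 : ℝ) = 2 ^ 6 by norm_num, log_pow]; norm_num
    have h3 : LL R = X ^ (0.6 : ℝ) := rfl
    rw [h2, h3] at h1
    have h4 : ((t : ℝ) - 6) * log 2 ≤ X ^ (0.6 : ℝ) := by linarith
    push_cast
    by_contra hcon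
    push Not at hcon
    have h5 : 1.45 * X ^ (0.6 : ℝ) < (t : ℝ) - 6 := by linarith
    have h6 : 1.45 * X ^ (0.6 : ℝ) * log 2 < ((t : ℝ) - 6) * log 2 :=
      mul_lt_mul_of_pos_right h5 (by linarith)
    nlinarith
  have hn4 : 4 * (t + 4) ≤ I0 := by
    have : (4 : ℝ) * ((t + 4 : ℕ) : ℝ) ≤ I0 := by linarith
    exact_mod_cast this
  exact ⟨hI0, hI08, hn, hn4⟩

/-- the error parameter -/
theorem par_err (X : ℝ) (n : ℕ) (hX : 12 ≤ X) (r5 : 400 ≤ X ^ (0.05 : ℝ))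
    (hn : (n : ℝ) ≤ 2 * X ^ (0.6 : ℝ)) :
    28 * √(n : ℝ) / X ^ (0.35 : ℝ) ≤ 40 * X ^ (-0.05 : ℝ) ∧ 40 * X ^ (-0.05 : ℝ) ≤ 0.1 := by
  have hX0 : 0 < X := by linarith
  have hneg : X ^ (-0.05 : ℝ) = (X ^ (0.05 : ℝ))⁻¹ := by rw [← rpow_neg hX0.le]
  have hneg0 : 0 < X ^ (-0.05 : ℝ) := rpow_pos_of_pos hX0 _
  have hχ0 : 0 < X ^ (0.35 : ℝ) := rpow_pos_of_pos hX0 _
  have hX03 : X ^ (0.3 : ℝ) * X ^ (0.3 : ℝ) = X ^ (0.6 : ℝ) := by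
    rw [← rpow_add hX0]; norm_num
  have hX35 : X ^ (0.3 : ℝ) = X ^ (0.35 : ℝ) * X ^ (-0.05 : ℝ) := by
    rw [← rpow_add hX0]; norm_num
  have h3 : 0 < X ^ (0.3 : ℝ) := rpow_pos_of_pos hX0 _
  have hsq : √(n : ℝ) ≤ 10 / 7 * X ^ (0.3 : ℝ) := by
    rw [sqrt_le_left (by positivity)]
    nlinarith
  constructor
  · rw [div_le_iff₀ hχ0]
    calc 28 * √(n : ℝ) ≤ 28 * (10 / 7 * X ^ (0.3 : ℝ)) := by linarith
      _ = 40 * X ^ (-0.05 : ℝ) * X ^ (0.35 : ℝ) := by rw [hX35]; ring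
  · rw [hneg]
    have : (X ^ (0.05 : ℝ))⁻¹ ≤ 400⁻¹ := inv_anti₀ (by norm_num) r5
    linarith

/-- the total cost -/
theorem par_cost (R X : ℝ) (n I0 : ℕ) (hR : 0 < R) (hX : 12 ≤ X) (hI0 : 0.7 * X ≤ I0)
    (hn : (n : ℝ) ≤ 2 * X ^ (0.6 : ℝ)) :
    (n : ℝ) * (4 * X ^ (0.35 : ℝ) * (12 * R / I0)) ≤ 138 * (R * X ^ (-0.05 : ℝ)) := by
  have hX0 : 0 < X := by linarith
  have hχ0 : 0 < X ^ (0.35 : ℝ) := rpow_pos_of_pos hX0 _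
  have hneg0 : 0 < X ^ (-0.05 : ℝ) := rpow_pos_of_pos hX0 _
  have e1 : (n : ℝ) * (4 * X ^ (0.35 : ℝ) * (12 * R / I0)) =
      (n : ℝ) * X ^ (0.35 : ℝ) * (48 * R) / I0 := by ring
  rw [e1, div_le_iff₀ (by linarith)]
  have e2 : X ^ (0.6 : ℝ) * X ^ (0.35 : ℝ) = X * X ^ (-0.05 : ℝ) := by
    rw [← rpow_add hX0]
    nth_rewrite 2 [← rpow_one X]
    rw [← rpow_add hX0]
    norm_num
  have e3 : (n : ℝ) * X ^ (0.35 : ℝ) ≤ 2 * (X * X ^ (-0.05 : ℝ)) := by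
    calc (n : ℝ) * X ^ (0.35 : ℝ) ≤ 2 * X ^ (0.6 : ℝ) * X ^ (0.35 : ℝ) :=
          mul_le_mul_of_nonneg_right hn hχ0.le
      _ = 2 * (X ^ (0.6 : ℝ) * X ^ (0.35 : ℝ)) := by ring
      _ = _ := by rw [e2]
  calc (n : ℝ) * X ^ (0.35 : ℝ) * (48 * R) ≤ 2 * (X * X ^ (-0.05 : ℝ)) * (48 * R) :=
        mul_le_mul_of_nonneg_right e3 (by positivity)
    _ = 96 * (R * X ^ (-0.05 : ℝ)) * X := by ring
    _ ≤ 138 * (R * X ^ (-0.05 : ℝ)) * (0.7 * X) := by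
        have : 0 ≤ R * X ^ (-0.05 : ℝ) * X := by positivity
        linarith
    _ ≤ 138 * (R * X ^ (-0.05 : ℝ)) * I0 := mul_le_mul_of_nonneg_left hI0 (by positivity)

/-- the truncation error -/
theorem par_trunc (R y : ℝ) (I0 t : ℕ) (hR : 0 < R) (hI : R ^ (1 / 2 : ℝ) ≤ 2 ^ I0)
    (hy : y ≤ 7 / 5 * R) :
    56 / (((2 ^ (I0 + (t + 4)) : ℕ)) : ℝ) * y ≤ 5 * R ^ (1 / 2 : ℝ) := by
  have hRR : R ^ (1 / 2 : ℝ) * R ^ (1 / 2 : ℝ) = R := by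
    rw [← rpow_add hR]; norm_num
  have hRh : 0 < R ^ (1 / 2 : ℝ) := rpow_pos_of_pos hR _
  have hp : 16 * R ^ (1 / 2 : ℝ) ≤ ((2 ^ (I0 + (t + 4)) : ℕ) : ℝ) := by
    push_cast
    rw [show I0 + (t + 4) = I0 + 4 + t by ring, pow_add, pow_add]
    have : (1 : ℝ) ≤ 2 ^ t := one_le_pow₀ (by norm_num)
    have h2I : (0 : ℝ) < 2 ^ I0 := by positivity
    calc 16 * R ^ (1 / 2 : ℝ) ≤ 16 * 2 ^ I0 := by linarith
      _ = 2 ^ I0 * 2 ^ 4 * 1 := by norm_num; ring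
      _ ≤ 2 ^ I0 * 2 ^ 4 * 2 ^ t := mul_le_mul_of_nonneg_left this (by positivity)
  have hp0 : (0 : ℝ) < ((2 ^ (I0 + (t + 4)) : ℕ) : ℝ) := by positivity
  rw [div_mul_eq_mul_div, div_le_iff₀ hp0]
  calc 56 * y ≤ 56 * (7 / 5 * R) := by linarith
    _ = 78.4 * (R ^ (1 / 2 : ℝ) * R ^ (1 / 2 : ℝ)) := by rw [hRR]; ring
    _ ≤ 5 * R ^ (1 / 2 : ℝ) * (16 * R ^ (1 / 2 : ℝ)) := by nlinarith
    _ ≤ _ := mul_le_mul_of_nonneg_left hp (by positivity)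

/-- **Lemma B** (propagation) -/
theorem lemmaB_of (hM : HMono) (hT : Trunc) (hLA : LookA) (hLB : LookB) : LemmaB := by
  obtain ⟨R0, hR0⟩ := ev
  refine ⟨1200, R0, by norm_num, ?_⟩
  intro Γ _ A lam R E c I0 t hRR hc hE hE2 hI ht
  obtain ⟨r1, r2, r3, r4, r5, r6⟩ := hR0 R hRR
  obtain ⟨hI0, hI08, hn, hn4⟩ := par R I0 t hI ht r1 r2 r3 r4
  obtain ⟨herr, hsmall⟩ := par_err (log R) (t + 4) r2 r5 hn
  have hR : 0 < R := by linarith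
  have hcost := par_cost R (log R) (t + 4) I0 hR r2 hI0 hn
  set X := log R with hX
  have hX0 : 0 < X := by linarith
  set χ := X ^ (0.35 : ℝ) with hχdef
  have hχ1 : 1 ≤ χ := one_le_rpow (by linarith) (by norm_num)
  have hX05 : 0 < X ^ (0.05 : ℝ) := by linarith
  have hneg : X ^ (-0.05 : ℝ) = (X ^ (0.05 : ℝ))⁻¹ := by rw [← rpow_neg hX0.le]
  have hneg0 : 0 < X ^ (-0.05 : ℝ) := rpow_pos_of_pos hX0 _
  have hE3 : E + 28 * √((t + 4 : ℕ) : ℝ) / χ * R ≤ 7 / 5 * R := by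
    have : 28 * √((t + 4 : ℕ) : ℝ) / χ * R ≤ 0.1 * R :=
      mul_le_mul_of_nonneg_right (herr.trans hsmall) hR.le
    linarith
  obtain ⟨hA, -, hC⟩ := iter hM hLA hLB lam R E χ I0 (t + 4) hR hχ1 hI08 hn4 hE hE3 (t + 4) le_rfl
  obtain ⟨g, hg⟩ := sq_ref lam I0 (12 * R / I0) χ (t + 4)
  obtain ⟨lam', h1, h2⟩ := trunc_ref hT hg hc (sq_mem (fun ω => (hc ω).1) I0 (12 * R / I0) χ
    (t + 4)) hC
  have hRR : R ^ (1 / 2 : ℝ) * R ^ (1 / 2 : ℝ) = R := by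
    rw [← rpow_add hR]; norm_num
  have hRh : 0 < R ^ (1 / 2 : ℝ) := rpow_pos_of_pos hR _
  have hf1 : 5 * R ^ (1 / 2 : ℝ) ≤ R * X ^ (-0.05 : ℝ) := by
    rw [hneg, ← div_eq_mul_inv, le_div_iff₀ hX05]
    calc 5 * R ^ (1 / 2 : ℝ) * X ^ (0.05 : ℝ) = R ^ (1 / 2 : ℝ) * (5 * X ^ (0.05 : ℝ)) := by ring
      _ ≤ R ^ (1 / 2 : ℝ) * R ^ (1 / 2 : ℝ) := mul_le_mul_of_nonneg_left r6 hRh.le
      _ = R := hRR
  have hRh1 : 1 ≤ R ^ (1 / 2 : ℝ) := one_le_rpow r1 (by norm_num)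
  have k3 : 1200 * R * X ^ (-0.05 : ℝ) = 1200 * (R * X ^ (-0.05 : ℝ)) := by ring
  refine ⟨lam', costLe_mono h1 ?_, ?_⟩
  · have l1 : log 2 < 0.6931471808 := log_two_lt_d9
    rw [k3]
    linarith
  · have k1 : 2 ^ (I0 + (t + 4)) / 16 = 2 ^ (I0 + t) := by
      rw [show I0 + (t + 4) = (I0 + t) + 4 by ring, pow_add]
      norm_num
    have k2 : 56 ≤ 2 ^ (I0 + (t + 4)) := by
      calc 56 ≤ 2 ^ 8 := by norm_num
        _ ≤ 2 ^ (I0 + (t + 4)) := Nat.pow_le_pow_right two_pos (by omega)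
    have k4 := h2 (2 ^ (I0 + (t + 4))) k2
    rw [k1] at k4
    refine k4.trans ?_
    have k5 := hA (t + 4) le_rfl
    generalize (sq I0 (12 * R / ↑I0) χ lam (t + 4)).h (2 ^ (I0 + (t + 4))) = y at k5 ⊢
    have k6 := par_trunc R y I0 t hR hI (k5.trans hE3)
    have k7 : y ≤ E + 40 * (R * X ^ (-0.05 : ℝ)) := by
      have := mul_le_mul_of_nonneg_right herr hR.le
      have e : 40 * X ^ (-0.05 : ℝ) * R = 40 * (R * X ^ (-0.05 : ℝ)) := by ring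
      linarith
    have k9 : 0 ≤ R * X ^ (-0.05 : ℝ) := by positivity
    rw [k3, add_mul, one_mul]
    linarith

end Vale.Agent.P091.AD.H347
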