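import Vale.Agent.P091.AD.H134.Refine
import Vale.Agent.P091.AD.H154.Rising

/-!
# P091, block AD, row AD-4 : the iteration behind Lemma B (helper347)
-/

set_option autoImplicit false

open Finset Real
open Vale.Agent.P065.Ent

noncomputable section

namespace Vale.Agent.P091.AD.H347

open Vale.Agent.P091.AD Vale.Agent.P091.AD.H154

section push
variable {Ω Ω' : Type*} [Fintype Ω] [Fintype Ω'] {α : Type*}

theorem H_law {μ : Ω → ℝ} {μ' : Ω' → ℝ} {X : Ω → α} {X' : Ω' → α}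
    (h : ∀ x, Pr μ X x = Pr μ' X' x) : H μ X = H μ' X' := by
  unfold H
  rw [sum_of_law μ μ' X X' (fun x => - log (Pr μ X x)) h]
  exact sum_congr rfl fun ω _ => by rw [h]

theorem Pr_pw_prod_fst {ι : Type*} [Fintype ι] [DecidableEq ι] (μ : Ω → ℝ) {ν : Ω' → ℝ}
    (hν : IsProb ν) (F : (ι → Ω) → α) (x : α) :
    Pr (pw (ι := ι) (fun w : Ω × Ω' => μ w.1 * ν w.2)) (fun u => F (fun i => (u i).1)) x
      = Pr (pw μ) F x := by
  classical
  have h1 := Pr_prod_fst (pw (ι := ι) μ) (pw (ι := ι) ν) (pw_isProb (ι := ι) hν).sum F x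
  rw [← h1]
  unfold Pr
  refine Fintype.sum_equiv (Equiv.arrowProdEquivProdArrow ι (fun _ => Ω) (fun _ => Ω')) _ _
    fun u => ?_
  have h2 : pw (ι := ι) (fun w : Ω × Ω' => μ w.1 * ν w.2) u
      = pw μ (fun i => (u i).1) * pw ν (fun i => (u i).2) := by
    unfold pw
    rw [← prod_mul_distrib]
  rw [h2]
  rfl

end push

/-- nonincreasing increments: `(b - a) (f (b+1) - f b) ≤ f b - f a` -/
theorem slope_le (f : ℕ → ℝ) (hf : ∀ n, f (n + 2) - f (n + 1) ≤ f (n + 1) - f n) :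
    ∀ d a : ℕ, (d : ℝ) * (f (a + d + 1) - f (a + d)) ≤ f (a + d) - f a := by
  have hanti : Antitone (fun n => f (n + 1) - f n) := antitone_nat_of_succ_le fun n => hf n
  intro d
  induction d with
  | zero => intro a; simp
  | succ d ih =>
    intro a
    have h1 := ih a
    have h2 : f (a + d + 1 + 1) - f (a + d + 1) ≤ f (a + d + 1) - f (a + d) := hf (a + d)
    have h3 : a + (d + 1) = a + d + 1 := by ring
    rw [h3]
    push_cast
    have hd : (0 : ℝ) ≤ d := Nat.cast_nonneg d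
    nlinarith [mul_le_mul_of_nonneg_left h2 hd]

variable {Γ : Type} [AddCommGroup Γ]

theorem looks_mem {A : Finset Γ} {lam : Law Γ} (h : ∀ ω, lam.a ω ∈ A) (q K : ℕ) :
    ∀ ω, (lam.looks q K).a ω ∈ A := fun ω => h ω.1

/-- looks decrease `ha` -/
theorem ha_looks_le (lam : Law Γ) (q K n : ℕ) : (lam.looks q K).ha n ≤ lam.ha n := by
  set ν : (Fin K → Fin q → lam.Lt) → ℝ := pw (pw lam.beta) with hν
  have hνp : IsProb ν := pw_isProb (pw_isProb lam.beta_isProb)
  have h1 : (lam.looks q K).ha n = Hc (pw (ι := Fin n) (lam.looks q K).μ)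
      (sm (lam.looks q K).a) (lb (lam.looks q K).z) := rfl
  have hp : IsProb (pw (ι := Fin n) (lam.looks q K).μ) := pw_isProb (lam.looks q K).prob
  rw [h1]
  refine (Hc_anti hp (sm (lam.looks q K).a)
    (Z := fun u : Fin n → (lam.looks q K).Ω => lb lam.z (fun i => (u i).1)) ?_).trans ?_
  · intro u v e
    funext i
    have := congrFun e i
    exact congrArg Prod.fst this
  · refine le_of_eq ?_
    unfold Law.ha Hc
    have h2 : ∀ x, Pr (pw (ι := Fin n) (lam.looks q K).μ)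
        (fun u => (sm lam.a (fun i => (u i).1), lb lam.z (fun i => (u i).1))) x =
        Pr (pw (ι := Fin n) lam.μ) (fun u => (sm lam.a u, lb lam.z u)) x := fun x =>
      Pr_pw_prod_fst lam.μ hνp (fun u : Fin n → lam.Ω => (sm lam.a u, lb lam.z u)) x
    have h3 : ∀ x, Pr (pw (ι := Fin n) (lam.looks q K).μ)
        (fun u => lb lam.z (fun i => (u i).1)) x =
        Pr (pw (ι := Fin n) lam.μ) (fun u => lb lam.z u) x := fun x =>
      Pr_pw_prod_fst lam.μ hνp (fun u : Fin n → lam.Ω => lb lam.z u) x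
    have h2' := H_law h2
    have h3' := H_law h3
    rw [← h2', ← h3']
    rfl

/-! ## The iteration -/

open Classical in
/-- the good index of the step `s` -/
def idx (I0 : ℕ) (G : ℝ) (lam : Law Γ) (s : ℕ) : ℕ :=
  if h : ∃ i, I0 ≤ 4 * i ∧ 4 * i ≤ 3 * I0 ∧ Good (fun i => lam.ha (2 ^ i)) G i ∧
    Good (fun j => lam.h (2 ^ j)) G (I0 + s - i) then h.choose else 0

/-- the number of looks -/
def nK (I0 : ℕ) (G χ : ℝ) (lam : Law Γ) (s : ℕ) : ℕ :=
  ⌈χ * 2 ^ (I0 + s - idx I0 G lam s)⌉₊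

/-- the iteration -/
def sq (I0 : ℕ) (G χ : ℝ) (lam : Law Γ) : ℕ → Law Γ
  | 0 => lam
  | s + 1 => (sq I0 G χ lam s).looks (2 ^ (I0 + s - idx I0 G (sq I0 G χ lam s) s))
      (nK I0 G χ (sq I0 G χ lam s) s)

theorem sq_mem {A : Finset Γ} {lam : Law Γ} (h : ∀ ω, lam.a ω ∈ A) (I0 : ℕ) (G χ : ℝ) :
    ∀ s, ∀ ω, (sq I0 G χ lam s).a ω ∈ A := by
  intro s
  induction s with
  | zero => exact h
  | succ s ih => exact looks_mem ih _ _

theorem sq_ref (lam : Law Γ) (I0 : ℕ) (G χ : ℝ) :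
    ∀ s, ∃ g : (sq I0 G χ lam s).Z → lam.Z, Ref lam (sq I0 G χ lam s) g := by
  intro s
  induction s with
  | zero => exact ⟨id, Ref.refl lam⟩
  | succ s ih =>
    obtain ⟨g, hg⟩ := ih
    exact ⟨fun l => g l.1, hg.trans (looks_ref (sq I0 G χ lam s) _ _)⟩

theorem sq_ha_le (lam : Law Γ) (I0 : ℕ) (G χ : ℝ) (s n : ℕ) :
    (sq I0 G χ lam (s + 1)).ha n ≤ (sq I0 G χ lam s).ha n := ha_looks_le _ _ _ _

section mono
variable (hM : HMono)
include hM

theorem h_mono (lam : Law Γ) : Monotone lam.h := monotone_nat_of_le_succ fun n => (hM Γ lam n).2.1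

theorem ha_mono (lam : Law Γ) : Monotone lam.ha :=
  monotone_nat_of_le_succ fun n => (hM Γ lam n).2.2.2.2.1

theorem h_pow_mono (lam : Law Γ) {i j : ℕ} (h : i ≤ j) : lam.h (2 ^ i) ≤ lam.h (2 ^ j) :=
  h_mono hM lam (Nat.pow_le_pow_right two_pos h)

theorem ha_pow_mono (lam : Law Γ) {i j : ℕ} (h : i ≤ j) : lam.ha (2 ^ i) ≤ lam.ha (2 ^ j) :=
  ha_mono hM lam (Nat.pow_le_pow_right two_pos h)

/-- the existence of the good index -/
theorem idx_spec (lam : Law Γ) (R : ℝ) (I0 s : ℕ) (hR : 0 < R) (hI : 8 ≤ I0) (hs : 4 * s ≤ I0)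
    (hb : lam.h (2 ^ I0) ≤ 7 / 5 * R) :
    I0 ≤ 4 * idx I0 (12 * R / I0) lam s ∧ 4 * idx I0 (12 * R / I0) lam s ≤ 3 * I0 ∧
      Good (fun i => lam.ha (2 ^ i)) (12 * R / I0) (idx I0 (12 * R / I0) lam s) ∧
      Good (fun j => lam.h (2 ^ j)) (12 * R / I0) (I0 + s - idx I0 (12 * R / I0) lam s) := by
  classical
  have hex : ∃ i, I0 ≤ 4 * i ∧ 4 * i ≤ 3 * I0 ∧ Good (fun i => lam.ha (2 ^ i)) (12 * R / I0) i ∧
      Good (fun j => lam.h (2 ^ j)) (12 * R / I0) (I0 + s - i) :=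
    exists_good' (fun i => lam.ha (2 ^ i)) (fun j => lam.h (2 ^ j)) R I0 s hR hI hs
      (fun i j hij _ => ha_pow_mono hM lam hij) (hM Γ lam _).2.2.2.1
      (((hM Γ lam _).2.2.2.2.2).trans hb)
      (fun i j hij _ => h_pow_mono hM lam hij) (hM Γ lam _).1 hb
  have h1 : idx I0 (12 * R / I0) lam s = hex.choose := dif_pos hex
  rw [h1]
  exact hex.choose_spec

/-- one step of the iteration -/
theorem step (hLA : LookA) (hLB : LookB) (lam : Law Γ) (R χ : ℝ) (I0 s : ℕ) (hR : 0 < R)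
    (hχ : 1 ≤ χ) (hI : 8 ≤ I0) (hs : 4 * s ≤ I0) (hb : lam.h (2 ^ I0) ≤ 7 / 5 * R) :
    Hc lam.μ lam.a lam.z -
        Hc (lam.looks (2 ^ (I0 + s - idx I0 (12 * R / I0) lam s)) (nK I0 (12 * R / I0) χ lam s)).μ
          (lam.looks (2 ^ (I0 + s - idx I0 (12 * R / I0) lam s)) (nK I0 (12 * R / I0) χ lam s)).a
          (lam.looks (2 ^ (I0 + s - idx I0 (12 * R / I0) lam s)) (nK I0 (12 * R / I0) χ lam s)).z
        ≤ 4 * χ * (12 * R / I0) ∧
      (lam.looks (2 ^ (I0 + s - idx I0 (12 * R / I0) lam s)) (nK I0 (12 * R / I0) χ lam s)).h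
          (2 ^ (I0 + s + 1)) ≤ lam.h (2 ^ (I0 + s)) + 4 / χ *
        (lam.ha (2 ^ (idx I0 (12 * R / I0) lam s)) -
          (lam.looks (2 ^ (I0 + s - idx I0 (12 * R / I0) lam s))
            (nK I0 (12 * R / I0) χ lam s)).ha (2 ^ (idx I0 (12 * R / I0) lam s))) := by
  obtain ⟨h1, h2, -, h4⟩ := idx_spec hM lam R I0 s hR hI hs hb
  set i := idx I0 (12 * R / I0) lam s with hi
  set j := I0 + s - i with hj
  set K := nK I0 (12 * R / I0) χ lam s with hK
  have hij : i + j = I0 + s := by omega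
  have hj1 : 1 ≤ j := by omega
  have hKdef : K = ⌈χ * 2 ^ j⌉₊ := rfl
  have hq1 : (1 : ℝ) ≤ 2 ^ j := one_le_pow₀ (by norm_num)
  have hχq : 1 ≤ χ * 2 ^ j := by nlinarith
  have hK1 : χ * 2 ^ j ≤ K := by rw [hKdef]; exact Nat.le_ceil _
  have hK2 : (K : ℝ) ≤ 2 * χ * 2 ^ j := by
    have := (Nat.ceil_lt_add_one (show 0 ≤ χ * 2 ^ j by positivity)).le
    rw [hKdef]
    linarith
  have hKpos : (0 : ℝ) < K := by linarith
  have hK0 : 1 ≤ K := by exact_mod_cast hKpos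
  -- the slope at `q`
  have hslope : (2 : ℝ) ^ j * (lam.h (2 ^ j + 1) - lam.h (2 ^ j)) ≤ 2 * (12 * R / I0) := by
    have e1 := slope_le lam.h (fun n => (hM Γ lam n).2.2.1) (2 ^ (j - 1)) (2 ^ (j - 1))
    have e2 : 2 ^ (j - 1) + 2 ^ (j - 1) = 2 ^ j := by
      rw [← two_mul, ← pow_succ']
      congr 1
      omega
    rw [e2] at e1
    have e3 := h4 1 hj1
    simp only [Nat.cast_one, mul_one] at e3
    have e4 : ((2 ^ (j - 1) : ℕ) : ℝ) + ((2 ^ (j - 1) : ℕ) : ℝ) = 2 ^ j := by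
      exact_mod_cast e2
    have e5 : (2 : ℝ) ^ j = 2 * ((2 ^ (j - 1) : ℕ) : ℝ) := by rw [← e4]; ring
    rw [e5]
    linarith
  have hs0 : 0 ≤ lam.h (2 ^ j + 1) - lam.h (2 ^ j) := sub_nonneg.mpr (hM Γ lam _).2.1
  constructor
  · refine (hLA Γ lam (2 ^ j) K).trans ?_
    calc (K : ℝ) * (lam.h (2 ^ j + 1) - lam.h (2 ^ j))
        ≤ 2 * χ * 2 ^ j * (lam.h (2 ^ j + 1) - lam.h (2 ^ j)) :=
          mul_le_mul_of_nonneg_right hK2 hs0
      _ = 2 * χ * ((2 : ℝ) ^ j * (lam.h (2 ^ j + 1) - lam.h (2 ^ j))) := by ring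
      _ ≤ 2 * χ * (2 * (12 * R / I0)) :=
          mul_le_mul_of_nonneg_left hslope (by linarith)
      _ = 4 * χ * (12 * R / I0) := by ring
  · have e1 := hLB Γ lam (2 ^ j) K (2 ^ i) (2 ^ (j + 1)) hK0 Nat.one_le_two_pow
    have e2 : 2 ^ (j + 1) * 2 ^ i = 2 ^ (I0 + s + 1) := by
      rw [← pow_add]; congr 1; omega
    have e3 : 2 ^ i * 2 ^ j = 2 ^ (I0 + s) := by
      rw [← pow_add]; congr 1
    rw [e2, e3] at e1
    refine e1.trans ?_
    have hD : 0 ≤ lam.ha (2 ^ i) - (lam.looks (2 ^ j) K).ha (2 ^ i) :=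
      sub_nonneg.mpr (ha_looks_le lam _ _ _)
    have e4 : ((2 ^ (j + 1) : ℕ) : ℝ) * (2 / (K : ℝ)) ≤ 4 / χ := by
      push_cast
      rw [mul_div_assoc', div_le_div_iff₀ hKpos (by linarith), pow_succ]
      nlinarith
    have e5 := mul_le_mul_of_nonneg_right e4 hD
    linarith

/-- the iteration, all invariants -/
theorem iter (hLA : LookA) (hLB : LookB) (lam : Law Γ) (R E χ : ℝ) (I0 n : ℕ) (hR : 0 < R)
    (hχ : 1 ≤ χ) (hI : 8 ≤ I0) (hn : 4 * n ≤ I0) (hE : lam.h (2 ^ I0) ≤ E)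
    (hE2 : E + 28 * √n / χ * R ≤ 7 / 5 * R) :
    ∀ k ≤ n, (∀ s ≤ k, (sq I0 (12 * R / I0) χ lam s).h (2 ^ (I0 + s)) ≤ E + 28 * √n / χ * R) ∧
      (∀ s < k, (sq I0 (12 * R / I0) χ lam (s + 1)).h (2 ^ (I0 + s + 1)) ≤
        (sq I0 (12 * R / I0) χ lam s).h (2 ^ (I0 + s)) + 4 / χ *
        ((sq I0 (12 * R / I0) χ lam s).ha (2 ^ (idx I0 (12 * R / I0)
            (sq I0 (12 * R / I0) χ lam s) s)) -
          (sq I0 (12 * R / I0) χ lam (s + 1)).ha (2 ^ (idx I0 (12 * R / I0)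
            (sq I0 (12 * R / I0) χ lam s) s)))) ∧
      Hc lam.μ lam.a lam.z - Hc (sq I0 (12 * R / I0) χ lam k).μ (sq I0 (12 * R / I0) χ lam k).a
        (sq I0 (12 * R / I0) χ lam k).z ≤ k * (4 * χ * (12 * R / I0)) := by
  set G := 12 * R / (I0 : ℝ) with hG
  have hχ0 : 0 < χ := by linarith
  intro k
  induction k with
  | zero =>
    intro _
    refine ⟨fun s hs => ?_, fun s hs => absurd hs (Nat.not_lt_zero s), ?_⟩
    · have : s = 0 := by omega
      subst this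
      have : 0 ≤ 28 * √(n : ℝ) / χ * R := by positivity
      show lam.h _ ≤ _
      simp only [add_zero]
      linarith
    · show Hc lam.μ lam.a lam.z - Hc lam.μ lam.a lam.z ≤ _
      simp
  | succ k ih =>
    intro hk
    obtain ⟨hA, hB, hC⟩ := ih (by omega)
    -- the bound for `h (2 ^ I0)` at all steps `s ≤ k`
    have hb : ∀ s ≤ k, (sq I0 G χ lam s).h (2 ^ I0) ≤ 7 / 5 * R := fun s hs =>
      ((h_pow_mono hM _ (Nat.le_add_right I0 s)).trans (hA s hs)).trans hE2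
    have hstep := step hM hLA hLB (sq I0 G χ lam k) R χ I0 k hR hχ hI (by omega) (hb k le_rfl)
    have hB' : ∀ s < k + 1, (sq I0 G χ lam (s + 1)).h (2 ^ (I0 + s + 1)) ≤
        (sq I0 G χ lam s).h (2 ^ (I0 + s)) + 4 / χ *
        ((sq I0 G χ lam s).ha (2 ^ (idx I0 G (sq I0 G χ lam s) s)) -
          (sq I0 G χ lam (s + 1)).ha (2 ^ (idx I0 G (sq I0 G χ lam s) s))) := by
      intro s hs
      rcases Nat.lt_succ_iff_lt_or_eq.mp hs with h | h
      · exact hB s h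
      · subst h
        exact hstep.2
    have hC' : Hc lam.μ lam.a lam.z - Hc (sq I0 G χ lam (k + 1)).μ (sq I0 G χ lam (k + 1)).a
        (sq I0 G χ lam (k + 1)).z ≤ ((k + 1 : ℕ) : ℝ) * (4 * χ * G) := by
      have h1 := hstep.1
      have h2 : Hc (sq I0 G χ lam k).μ (sq I0 G χ lam k).a (sq I0 G χ lam k).z -
        Hc (sq I0 G χ lam (k + 1)).μ (sq I0 G χ lam (k + 1)).a (sq I0 G χ lam (k + 1)).z
          ≤ 4 * χ * G := h1
      push_cast
      linarith
    refine ⟨?_, hB', hC'⟩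
    -- the potential
    have hsum : ∑ s ∈ range (k + 1),
        ((sq I0 G χ lam s).ha (2 ^ (idx I0 G (sq I0 G χ lam s) s)) -
          (sq I0 G χ lam (s + 1)).ha (2 ^ (idx I0 G (sq I0 G χ lam s) s))) ≤
        7 * R * √((k + 1 : ℕ) : ℝ) := by
      refine potential_sum' (fun s i => (sq I0 G χ lam s).ha (2 ^ i))
        (fun s => idx I0 G (sq I0 G χ lam s) s) R I0 (k + 1) hR hI ?_ ?_ ?_ ?_ ?_ ?_ ?_
      · intro t ht
        have : 4 * idx I0 G (sq I0 G χ lam t) t ≤ 3 * I0 :=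
          (idx_spec hM (sq I0 G χ lam t) R I0 t hR hI (by omega) (hb t (by omega))).2.1
        show idx I0 G (sq I0 G χ lam t) t ≤ I0
        omega
      · intro t ht
        exact (idx_spec hM (sq I0 G χ lam t) R I0 t hR hI (by omega) (hb t (by omega))).1
      · intro t _ a b hab _
        exact ha_pow_mono hM _ hab
      · intro t _
        exact (hM Γ _ _).2.2.2.1
      · intro t ht
        rcases Nat.lt_or_ge t (k + 1) with h | h
        · exact (hM Γ _ _).2.2.2.2.2.trans (hb t (by omega))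
        · have : t = k + 1 := by omega
          subst this
          exact (sq_ha_le lam I0 G χ k _).trans
            ((hM Γ _ _).2.2.2.2.2.trans (hb k le_rfl))
      · intro t _ a _
        exact sq_ha_le lam I0 G χ t _
      · intro t ht
        exact (idx_spec hM (sq I0 G χ lam t) R I0 t hR hI (by omega) (hb t (by omega))).2.2.1
    -- the sums
    have htel : ∀ m ≤ k + 1, (sq I0 G χ lam m).h (2 ^ (I0 + m)) ≤ E + 4 / χ *
        ∑ s ∈ range m, ((sq I0 G χ lam s).ha (2 ^ (idx I0 G (sq I0 G χ lam s) s)) -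
          (sq I0 G χ lam (s + 1)).ha (2 ^ (idx I0 G (sq I0 G χ lam s) s))) := by
      intro m
      induction m with
      | zero =>
        intro _
        simp only [range_zero, sum_empty, mul_zero, add_zero]
        exact hE
      | succ m ihm =>
        intro hm
        rw [sum_range_succ, mul_add]
        have h1 := ihm (by omega)
        have h2 := hB' m (by omega)
        have e : I0 + (m + 1) = I0 + m + 1 := by ring
        rw [e]
        linarith
    intro s hs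
    rcases Nat.lt_or_ge s (k + 1) with h | h
    · exact hA s (by omega)
    · have : s = k + 1 := by omega
      subst this
      refine (htel (k + 1) le_rfl).trans ?_
      have h1 : √((k + 1 : ℕ) : ℝ) ≤ √(n : ℝ) := sqrt_le_sqrt (by exact_mod_cast hk)
      have h2 := mul_le_mul_of_nonneg_left hsum (show 0 ≤ 4 / χ by positivity)
      have h3 : 4 / χ * (7 * R * √((k + 1 : ℕ) : ℝ)) ≤ 28 * √(n : ℝ) / χ * R := by
        have : 4 / χ * (7 * R * √((k + 1 : ℕ) : ℝ)) = 28 / χ * R * √((k + 1 : ℕ) : ℝ) := by ring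
        rw [this]
        have h4 : 28 * √(n : ℝ) / χ * R = 28 / χ * R * √(n : ℝ) := by ring
        rw [h4]
        exact mul_le_mul_of_nonneg_left h1 (by positivity)
      linarith

end mono

end Vale.Agent.P091.AD.H347
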